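import Crest.Agent.R110S.Defs

/-!
# R110 piece BasicCfcA: functional calculus facts (elementary)

All are `cfc` computations: `cfc_nonneg`, `cfc_mul`, `cfc_le_iff`, `norm_cfc_le`, `cfc_congr`, ... continuity by `fun_prop`.
-/

set_option autoImplicit false

namespace Crest.Agent.R110S

universe u

variable {A : Type u} [CStarAlgebra A]

section sa
variable (x : A)

theorem cut_sa (t : ℝ) : IsSelfAdjoint (cut t x) := by
  unfold cut
  exact cfc_predicate _ x

theorem rcut_sa (t : ℝ) : IsSelfAdjoint (rcut t x) := by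
  unfold rcut
  exact cfc_predicate _ x

theorem ramp_sa (s t : ℝ) : IsSelfAdjoint (ramp s t x) := by
  unfold ramp
  exact cfc_predicate _ x

theorem eu_sa (θ : ℝ) : IsSelfAdjoint (eu θ x) := by
  unfold eu
  exact cfc_predicate _ x

end sa

variable [PartialOrder A] [StarOrderedRing A]

theorem cut_nonneg (t : ℝ) (x : A) : 0 ≤ cut t x := by
  unfold cut
  exact cfc_nonneg (fun r _ => le_max_right _ _)

theorem rcut_nonneg (t : ℝ) (x : A) : 0 ≤ rcut t x := by
  unfold rcut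
  exact cfc_nonneg (fun r _ => Real.sqrt_nonneg _)

theorem ramp_nonneg (s t : ℝ) (x : A) : 0 ≤ ramp s t x := by
  unfold ramp
  exact cfc_nonneg (fun r _ => le_max_left _ _)

theorem ramp_le_one (s t : ℝ) (x : A) : ramp s t x ≤ 1 := by
  unfold ramp
  exact cfc_le_one _ _ (fun r _ => max_le zero_le_one (min_le_left _ _))

theorem norm_ramp_le_one (s t : ℝ) (x : A) : ‖ramp s t x‖ ≤ 1 :=
  (CStarAlgebra.norm_le_one_iff_of_nonneg _ (ramp_nonneg s t x)).2 (ramp_le_one s t x)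

theorem eu_nonneg {θ : ℝ} (hθ : 0 < θ) (x : A) : 0 ≤ eu θ x := by
  unfold eu
  exact cfc_nonneg (fun r _ => by positivity)

theorem eu_le_one {θ : ℝ} (hθ : 0 < θ) (x : A) : eu θ x ≤ 1 := by
  unfold eu
  refine cfc_le_one _ _ (fun r _ => ?_)
  have h : 0 < |r| + θ := by positivity
  rw [div_le_one h]
  linarith

theorem norm_eu_le_one {θ : ℝ} (hθ : 0 < θ) (x : A) : ‖eu θ x‖ ≤ 1 :=
  (CStarAlgebra.norm_le_one_iff_of_nonneg _ (eu_nonneg hθ x)).2 (eu_le_one hθ x)

theorem norm_one_sub_eu_le_one {θ : ℝ} (hθ : 0 < θ) (x : A) : ‖1 - eu θ x‖ ≤ 1 :=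
  (CStarAlgebra.norm_le_one_iff_of_nonneg _ (sub_nonneg.2 (eu_le_one hθ x))).2
    (sub_le_self _ (eu_nonneg hθ x))


end Crest.Agent.R110S
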