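import Crest.Agent.R110S.BasicCfcA

/-!
# R110 piece BasicCfcB: functional calculus facts (elementary)

All are `cfc` computations: `cfc_nonneg`, `cfc_mul`, `cfc_le_iff`, `norm_cfc_le`, `cfc_congr`, ... continuity by `fun_prop`.
`cut_eq_zero_iff`: for `0 ≤ x` the number `‖x‖` is in the real spectrum if `A` is non-trivial
(`CStarAlgebra.norm_mem_spectrum_of_nonneg` or similar; treat the trivial algebra separately, `‖x‖ = 0`).
-/

set_option autoImplicit false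

namespace Crest.Agent.R110S

universe u

variable {A : Type u} [CStarAlgebra A] [PartialOrder A] [StarOrderedRing A]

theorem rcut_mul_rcut {x : A} (hx : IsSelfAdjoint x) (t : ℝ) : rcut t x * rcut t x = cut t x := by
  sorry

/-- `x ≤ (x - t)₊ + t`. -/
theorem le_cut_add {x : A} (hx : IsSelfAdjoint x) (t : ℝ) : x ≤ cut t x + algebraMap ℝ A t := by
  sorry

/-- `x - t ≤ (x - t)₊`. -/
theorem sub_le_cut {x : A} (hx : IsSelfAdjoint x) (t : ℝ) : x - algebraMap ℝ A t ≤ cut t x := by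
  sorry

theorem cut_eq_zero_iff {x : A} (hx : 0 ≤ x) {t : ℝ} (ht : 0 ≤ t) : cut t x = 0 ↔ ‖x‖ ≤ t := by
  sorry

theorem norm_sub_cut_le {x : A} (hx : 0 ≤ x) {t : ℝ} (ht : 0 ≤ t) : ‖x - cut t x‖ ≤ t := by
  sorry

theorem norm_cut_le {x : A} (hx : 0 ≤ x) {t : ℝ} (ht : 0 ≤ t) : ‖cut t x‖ ≤ ‖x‖ := by
  sorry

/-- `‖x‖ ≤ ‖(x - t)₊‖ + t`. -/
theorem norm_le_norm_cut_add {x : A} (hx : 0 ≤ x) {t : ℝ} (ht : 0 ≤ t) : ‖x‖ ≤ ‖cut t x‖ + t := by
  sorry


end Crest.Agent.R110S
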