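import Crest.Agent.R110S.BasicCfcA

/-!
# R110 piece BasicCfcC: functional calculus facts (elementary)

All are `cfc` computations: `cfc_nonneg`, `cfc_mul`, `cfc_le_iff`, `norm_cfc_le`, `cfc_congr`, ... continuity by `fun_prop`.
`norm_lt_of_ramp`: for `0 ≤ x` the number `‖x‖` is in the real spectrum if `A` is non-trivial
(`CStarAlgebra.norm_mem_spectrum_of_nonneg` or similar; treat the trivial algebra separately, `‖x‖ = 0`).
-/

set_option autoImplicit false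

namespace Crest.Agent.R110S

universe u

variable {A : Type u} [CStarAlgebra A] [PartialOrder A] [StarOrderedRing A]

/-- `ramp s t x` is a unit on `(x - r)₊^{1/2}` for `r ≥ t`. -/
theorem ramp_mul_rcut {x : A} (hx : IsSelfAdjoint x) {s t r : ℝ} (hst : s < t) (htr : t ≤ r) :
    ramp s t x * rcut r x = rcut r x := by
  sorry

theorem ramp_mul_cut {x : A} (hx : IsSelfAdjoint x) {s t r : ℝ} (hst : s < t) (htr : t ≤ r) :
    ramp s t x * cut r x = cut r x := by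
  sorry

/-- If `‖x‖ ≤ s` then `ramp s t x = 0`. -/
theorem ramp_eq_zero {x : A} (hx : 0 ≤ x) {s t : ℝ} (hst : s < t) (h : ‖x‖ ≤ s) :
    ramp s t x = 0 := by
  sorry

/-- If `‖ramp s t x‖ < 1` then `‖x‖ < t`. -/
theorem norm_lt_of_ramp {x : A} (hx : 0 ≤ x) {s t : ℝ} (hst : s < t) (ht : 0 < t)
    (h : ‖ramp s t x‖ < 1) : ‖x‖ < t := by
  sorry

/-- approximate unit: if `y⋆y ≤ q` then `‖y (1 - eu θ q)‖² ≤ θ`.
`(1-e) y⋆y (1-e) ≤ (1-e) q (1-e) = θ² q (q+θ)⁻² ≤ θ`. -/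
theorem norm_mul_one_sub_eu {q y : A} (hq : 0 ≤ q) (h : star y * y ≤ q) {θ : ℝ} (hθ : 0 < θ) :
    ‖y * (1 - eu θ q)‖ ^ 2 ≤ θ := by
  sorry

/-- factorisation `(x-t)₊^{1/2} = x m` for `x ≥ 0`, `t > 0`  (`m = cfc (√(r-t)₊ / max r t)`). -/
theorem rcut_factor {x : A} (hx : 0 ≤ x) {t : ℝ} (ht : 0 < t) : ∃ m : A, rcut t x = x * m := by
  sorry

theorem cut_factor {x : A} (hx : 0 ≤ x) {t : ℝ} (ht : 0 < t) : ∃ m : A, cut t x = x * m := by
  sorry

end Crest.Agent.R110S
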