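import Crest.Agent.R110S.BasicMap

/-!
# R110 piece BasicDom: elementary API for `Dom` (easy; `map_*` of BasicMap may be used)
-/

set_option autoImplicit false

namespace Crest.Agent.R110S

universe u

variable {A : Type u} [CStarAlgebra A] {B : Type u} [CStarAlgebra B]

theorem Dom.refl (x : A) : Dom x x := fun _ _ _ h => h

theorem Dom.trans {x y z : A} (h1 : Dom x y) (h2 : Dom y z) : Dom x z :=
  fun B _ π h => h1 B π (h2 B π h)

theorem Dom.mul_left {x y : A} (h : Dom x y) (a : A) : Dom (a * x) y := by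
  sorry

theorem Dom.mul_right {x y : A} (h : Dom x y) (a : A) : Dom (x * a) y := by
  sorry

theorem Dom.add {x y z : A} (h1 : Dom x z) (h2 : Dom y z) : Dom (x + y) z := by
  sorry

theorem Dom.sub {x y z : A} (h1 : Dom x z) (h2 : Dom y z) : Dom (x - y) z := by
  sorry

theorem Dom.star {x y : A} (h : Dom x y) : Dom (star x) y := by
  sorry

theorem Dom.map (π : A →⋆ₐ[ℂ] B) {x y : A} (h : Dom x y) : Dom (π x) (π y) := by
  sorry

theorem dom_cfc {x : A} (hx : IsSelfAdjoint x) {f : ℝ → ℝ} (hf : Continuous f) (hf0 : f 0 = 0) :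
    Dom (cfc f x) x := by
  sorry

theorem dom_cut {x : A} (hx : IsSelfAdjoint x) {t : ℝ} (ht : 0 ≤ t) : Dom (cut t x) x := by
  sorry

theorem dom_rcut {x : A} (hx : IsSelfAdjoint x) {t : ℝ} (ht : 0 ≤ t) : Dom (rcut t x) x := by
  sorry

theorem dom_ramp {x : A} (hx : IsSelfAdjoint x) {s t : ℝ} (hs : 0 ≤ s) (hst : s < t) :
    Dom (ramp s t x) x := by
  sorry

theorem dom_eu {x : A} (hx : IsSelfAdjoint x) {θ : ℝ} (hθ : 0 < θ) : Dom (eu θ x) x := by
  sorry

/-- `a⋆a = 0` implies `a = 0` in every quotient. -/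
theorem dom_of_star_mul_self (x : A) : Dom x (star x * x) := by
  sorry

end Crest.Agent.R110S
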