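import Crest.Agent.R110S.Defs

/-!
# R110 piece BasicMap: compatibility of `cut`, `rcut`, `ramp`, `eu` with
⋆-homomorphisms (independent, easy)

Use `StarAlgHomClass.map_cfc` (name may differ) : `π (cfc f x) = cfc f (π x)`; continuity of `π` is automatic
(`NonUnitalStarAlgHom.norm_apply_le` / `map_continuous`).
-/

set_option autoImplicit false

namespace Crest.Agent.R110S

universe u

variable {A : Type u} [CStarAlgebra A] {B : Type u} [CStarAlgebra B]

theorem map_cfc' (π : A →⋆ₐ[ℂ] B) {x : A} (hx : IsSelfAdjoint x) {f : ℝ → ℝ} (hf : Continuous f) :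
    π (cfc f x) = cfc f (π x) := by
  have hπ : Continuous π := by
    refine AddMonoidHomClass.continuous_of_bound π 1 fun y => ?_
    rw [one_mul]
    exact NonUnitalStarAlgHom.norm_apply_le π y
  have hx' : IsSelfAdjoint (π x) := hx.map π
  exact StarAlgHomClass.map_cfc (S := ℂ) π f x hf.continuousOn hπ hx hx'

theorem map_cut (π : A →⋆ₐ[ℂ] B) {x : A} (hx : IsSelfAdjoint x) (t : ℝ) : π (cut t x) = cut t (π x) :=
  map_cfc' π hx (by fun_prop)

theorem map_rcut (π : A →⋆ₐ[ℂ] B) {x : A} (hx : IsSelfAdjoint x) (t : ℝ) : π (rcut t x) = rcut t (π x) :=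
  map_cfc' π hx (by fun_prop)

theorem map_ramp (π : A →⋆ₐ[ℂ] B) {x : A} (hx : IsSelfAdjoint x) (s t : ℝ) :
    π (ramp s t x) = ramp s t (π x) :=
  map_cfc' π hx (continuous_const.max
    (continuous_const.min ((continuous_id.sub continuous_const).div_const _)))

theorem map_eu (π : A →⋆ₐ[ℂ] B) {x : A} (hx : IsSelfAdjoint x) {θ : ℝ} (hθ : 0 < θ) :
    π (eu θ x) = eu θ (π x) :=
  map_cfc' π hx (continuous_abs.div (continuous_abs.add continuous_const)
    fun r => (add_pos_of_nonneg_of_pos (abs_nonneg r) hθ).ne')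

/-- `f 0 = 0` : `cfc f 0 = 0`. -/
theorem cfc_zero' {f : ℝ → ℝ} (hf0 : f 0 = 0) : cfc f (0 : A) = 0 := by
  rw [cfc_apply_zero, hf0, map_zero]


end Crest.Agent.R110S
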