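import Mathlib

/-!
# R110 (S0145): purely infinite ⟹ strongly purely infinite.  Definitions.

Everything happens in a UNITAL C⋆-algebra `A` (later: the unitization of `C` and quotients of it) with a
distinguished two-sided ⋆-ideal `I : Set A` all of whose positive elements are properly infinite (`PId A I`).

* `Dom x y`   : `x` lies in the closed two-sided ideal generated by `y` (said with quotients: every unital
                ⋆-homomorphism killing `y` kills `x`).
* `cut t x`   : `(x - t)₊`.          * `rcut t x` : `((x - t)₊)^{1/2}`.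
* `ramp s t x`: `0` on `(-∞,s]`, `1` on `[t,∞)`, linear in between (`s < t`).
* `eu θ x`    : `|x| (|x| + θ)⁻¹` (approximate unit element made from `x`).
* `Good a b z`: the conclusion for `α = a²`, `β = b²` and coupling `z`.
-/

set_option autoImplicit false

namespace Crest.Agent.R110S

universe u

/-- `x` is in the closed two-sided ideal generated by `y`. -/
def Dom {A : Type u} [CStarAlgebra A] (x y : A) : Prop :=
  ∀ (B : Type u) [CStarAlgebra B] (π : A →⋆ₐ[ℂ] B), π y = 0 → π x = 0

/-- `h` is properly infinite (in the unital algebra `A`). -/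
def PInf {A : Type u} [CStarAlgebra A] (h : A) : Prop :=
  ∀ ε : ℝ, 0 < ε → ∃ r s : A,
    ‖star r * h * r - h‖ < ε ∧ ‖star s * h * s - h‖ < ε ∧ ‖star r * h * s‖ < ε

/-- A two-sided ⋆-ideal, stable under continuous functions vanishing at `0`, all of whose positive elements
are properly infinite. -/
structure PId (A : Type u) [CStarAlgebra A] (I : Set A) : Prop where
  zero : (0 : A) ∈ I
  add : ∀ x ∈ I, ∀ y ∈ I, x + y ∈ I
  left : ∀ a : A, ∀ x ∈ I, a * x ∈ I
  right : ∀ a : A, ∀ x ∈ I, x * a ∈ I
  star : ∀ x ∈ I, star x ∈ I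
  cfc : ∀ x ∈ I, IsSelfAdjoint x → ∀ f : ℝ → ℝ, Continuous f → f 0 = 0 → cfc f x ∈ I
  pinf : ∀ x ∈ I, ∀ y : A, x = Star.star y * y → PInf x

/-- `(x - t)₊`. -/
noncomputable def cut {A : Type u} [CStarAlgebra A] (t : ℝ) (x : A) : A :=
  cfc (fun r : ℝ => max (r - t) 0) x

/-- `((x - t)₊)^{1/2}`. -/
noncomputable def rcut {A : Type u} [CStarAlgebra A] (t : ℝ) (x : A) : A :=
  cfc (fun r : ℝ => Real.sqrt (max (r - t) 0)) x

/-- `0` up to `s`, `1` from `t` on, linear in between. -/
noncomputable def ramp {A : Type u} [CStarAlgebra A] (s t : ℝ) (x : A) : A :=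
  cfc (fun r : ℝ => max 0 (min 1 ((r - s) / (t - s)))) x

/-- `|x| (|x| + θ)⁻¹`. -/
noncomputable def eu {A : Type u} [CStarAlgebra A] (θ : ℝ) (x : A) : A :=
  cfc (fun r : ℝ => |r| / (|r| + θ)) x

/-- The conclusion for `α = a²`, `β = b²`, coupling `z`. -/
def Good {A : Type u} [CStarAlgebra A] (a b z : A) : Prop :=
  ∀ ε : ℝ, 0 < ε → ∃ v w : A,
    ‖star v * (a * a) * v - a * a‖ < ε ∧ ‖star w * (b * b) * w - b * b‖ < ε ∧
      ‖star v * (a * z * b) * w‖ < ε

end Crest.Agent.R110S
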