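import Crest.Agent.R110S.BasicCfc

/-!
# R110 piece MajB

`approx_of_le`: `Yε = Y + ε` is invertible (positive), `d = Yε^{-1/2} x^{1/2}`: `d d⋆ = Yε^{-1/2} x Yε^{-1/2} ≤ 1`,
`d⋆ Yε d = x`, so `d⋆ Y d = x - ε d⋆d`.
-/

set_option autoImplicit false

namespace Crest.Agent.R110S

universe u

variable {A : Type u} [CStarAlgebra A]

theorem approx_of_le [PartialOrder A] [StarOrderedRing A] {x Y : A} (hx : 0 ≤ x) (hY : 0 ≤ Y)
    {ε : ℝ} (hε : 0 < ε) (h : x ≤ Y + algebraMap ℝ A ε) :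
    ∃ d : A, ‖d‖ ≤ 1 ∧ ‖star d * Y * d - x‖ ≤ ε := by
  sorry


end Crest.Agent.R110S
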