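import Crest.Agent.R110S.Defs

/-!
# R110 piece MajC

`copies`: induction on `n`: if `r_i` works for `h` up to `ε'` and `p, q` are from `PInf h` with `ε''` small
(depending on the `r_i`), then `p r_1, …, p r_n, q` works:
`(p r_i)⋆ h (p r_j) = r_i⋆ (p⋆ h p) r_j ≈ r_i⋆ h r_j`, `(p r_i)⋆ h q = r_i⋆ (p⋆ h q) ≈ 0`.
-/

set_option autoImplicit false

namespace Crest.Agent.R110S

universe u

variable {A : Type u} [CStarAlgebra A]

theorem copies {h : A} (hh : PInf h) (hsa : IsSelfAdjoint h) (n : ℕ) {ε : ℝ} (hε : 0 < ε) :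
    ∃ r : Fin n → A, ∀ i j, ‖star (r i) * h * r j - (if i = j then h else 0)‖ < ε := by
  sorry

end Crest.Agent.R110S
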