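import Crest.Agent.R110S.BasicDom
import Crest.Agent.R110S.BasicCfc

/-!
# R110 piece PIdApi: API for `PId` and stability under quotients (easy)

`PId.map`: for `y ∈ π '' I` selfadjoint choose a selfadjoint preimage `(x + x⋆)/2 ∈ I` and use `map_cfc'`.
For `pinf`: `y = w⋆w ≥ 0` in `D` (order: `CStarAlgebra.spectralOrder`), `y = π x`, `x ∈ I` selfadjoint; then
`x' = cfc (max · 0) x ∈ I` is positive, `π x' = cfc (max · 0) y = y`, so `PInf x'` and the elements `π r, π s` work
(`‖π a‖ ≤ ‖a‖`).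
-/

set_option autoImplicit false

namespace Crest.Agent.R110S

universe u

variable {A : Type u} [CStarAlgebra A] {I : Set A}

theorem PId.neg (hI : PId A I) {x : A} (hx : x ∈ I) : -x ∈ I := by
  sorry

theorem PId.sub (hI : PId A I) {x y : A} (hx : x ∈ I) (hy : y ∈ I) : x - y ∈ I := by
  sorry

theorem PId.cut (hI : PId A I) {x : A} (hx : x ∈ I) (hsa : IsSelfAdjoint x) {t : ℝ} (ht : 0 ≤ t) :
    cut t x ∈ I := by
  sorry

theorem PId.rcut (hI : PId A I) {x : A} (hx : x ∈ I) (hsa : IsSelfAdjoint x) {t : ℝ} (ht : 0 ≤ t) :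
    rcut t x ∈ I := by
  sorry

theorem PId.ramp (hI : PId A I) {x : A} (hx : x ∈ I) (hsa : IsSelfAdjoint x) {s t : ℝ} (hs : 0 ≤ s)
    (hst : s < t) : ramp s t x ∈ I := by
  sorry

theorem PId.eu (hI : PId A I) {x : A} (hx : x ∈ I) (hsa : IsSelfAdjoint x) {θ : ℝ} (hθ : 0 < θ) :
    eu θ x ∈ I := by
  sorry

/-- positive elements of `I` are properly infinite. -/
theorem PId.pinf' [PartialOrder A] [StarOrderedRing A] (hI : PId A I) {x : A} (hx : x ∈ I) (h0 : 0 ≤ x) :
    PInf x := by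
  sorry

theorem PId.map {D : Type u} [CStarAlgebra D] (hI : PId A I) (π : A →⋆ₐ[ℂ] D)
    (hπ : Function.Surjective π) : PId D (π '' I) := by
  sorry

end Crest.Agent.R110S
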