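import Crest.Agent.R110S.BasicDom
import Crest.Agent.R110S.BasicCfc

/-!
# R110 pieces QuotUnit, ExistsEU (independent)

`quot_unit`: `j_i` from `hnorm` for `x_i` (error `ε/2`), `q = ∑ j_i⋆ j_i`, `Dom q y`, `f = eu θ q`, `θ = ε²/4`:
`‖j_i (1 - f)‖² ≤ θ` (`norm_mul_one_sub_eu`), `‖x_i (1-f)‖ ≤ ‖(x_i + j_i)(1-f)‖ + ‖j_i (1-f)‖ ≤ ‖π x_i‖ + ε`.

`exists_eU`: `ρ₁ : A → B₁` quotient by `gen y₁`.  In `B₁`: `Dom (ρ₁ q) (ρ₁ y₂)` (if `σ (ρ₁ y₂) = 0` then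
`σ ρ₁ (y₁+y₂) = 0`), so `ρ₁ q ∈ gen (ρ₁ y₂)`: `‖ρ₁ q - ∑ ρ₁(r_k) ρ₁(y₂) ρ₁(s_k)‖ ≤ κ/2`; `j = ∑ r_k y₂ s_k`,
`e = eu θ (j j⋆)`, `‖(1-e) j‖² ≤ θ = κ²/16`; `‖ρ₁((1-e) q)‖ ≤ κ/2 + κ/4`.  Any `π` killing `y₁` factors through `ρ₁`.
-/

set_option autoImplicit false

namespace Crest.Agent.R110S

universe u

variable {A : Type u} [CStarAlgebra A] [PartialOrder A] [StarOrderedRing A]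

theorem quot_unit {y : A} {D : Type u} [CStarAlgebra D] (π : A →⋆ₐ[ℂ] D)
    (hker : ∀ x, π x = 0 ↔ Dom x y)
    (hnorm : ∀ (x : A) (ε : ℝ), 0 < ε → ∃ j : A, Dom j y ∧ ‖x + j‖ < ‖π x‖ + ε)
    {n : ℕ} (x : Fin n → A) {ε : ℝ} (hε : 0 < ε) :
    ∃ f : A, 0 ≤ f ∧ f ≤ 1 ∧ π f = 0 ∧ ∀ i, ‖x i * (1 - f)‖ ≤ ‖π (x i)‖ + ε := by
  sorry

end Crest.Agent.R110S
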