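import Crest.Agent.R110S.PIdApi
import Crest.Prelude.Def_PurelyInfinite

/-!
# R110 piece Unitz: `PId` for `C ⊆ Unitization ℂ C` (independent)

`I = Set.range (Unitization.inr : C → Unitization ℂ C)` (`Unitization ℂ C` is a `CStarAlgebra`, `‖inr x‖ = ‖x‖`).
`cfc`: `x = inr x'`, `x'` selfadjoint, `f 0 = 0`: `cfc f (inr x') = inr (cfcₙ f x')` (`Unitization.inr` lemma
`cfcₙ_eq_cfc_inr`, `Unitization.real_cfcₙ_eq_cfc_inr`, …).
`pinf`: `inr x' = star y * y ≥ 0` ⟹ `0 ≤ x'` (`Unitization.inr_nonneg_iff`), `x' = star w * w`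
(`CStarAlgebra.nonneg_iff_eq_star_mul_self` for non-unital algebras), so `hC w` applies.
-/

set_option autoImplicit false

namespace Crest.Agent.R110S

universe u

theorem pId_unitization (C : Type u) [NonUnitalCStarAlgebra C]
    (hC : ∀ x : C, Crest.OpAlg.IsProperlyInfinite (star x * x)) :
    PId (Unitization ℂ C) (Set.range (Unitization.inr : C → Unitization ℂ C)) := by
  sorry

end Crest.Agent.R110S
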